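import Mathlib

/-! P335: the switch chain on simple graphs, exactly as in the problem. -/

namespace Vale.Agent.P335.Lit

open Finset

open Classical in
/-- the perfect matchings of the complete graph on the 4-element set `S`: two edges (not loops)
whose endpoints are exactly the elements of `S` -/
noncomputable def perfectMatchings {n : ℕ} (S : Finset (Fin n)) :
    Finset (Finset (Sym2 (Fin n))) :=
  univ.filter fun F => F.card = 2 ∧ (∀ e ∈ F, ¬ e.IsDiag) ∧ ∀ v, v ∈ S ↔ ∃ e ∈ F, v ∈ e

open Classical in
/-- if all edges of `F` are present and all edges of `F'` are absent, replace `F` by `F'`;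
otherwise stay put -/
noncomputable def switch {n : ℕ} (G : SimpleGraph (Fin n)) (F F' : Finset (Sym2 (Fin n))) :
    SimpleGraph (Fin n) :=
  if (∀ e ∈ F, e ∈ G.edgeSet) ∧ (∀ e ∈ F', e ∉ G.edgeSet) then
    SimpleGraph.fromEdgeSet ((G.edgeSet \ (F : Set (Sym2 (Fin n)))) ∪ (F' : Set (Sym2 (Fin n))))
  else G

open Classical in
/-- choose a 4-element set `S` uniformly, then an ordered pair of distinct perfect matchings of
the complete graph on `S` uniformly, and switch -/
noncomputable def proposal (n : ℕ) : Matrix (SimpleGraph (Fin n)) (SimpleGraph (Fin n)) ℝ :=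
  fun G H => ∑ S ∈ powersetCard 4 (univ : Finset (Fin n)), ∑ m ∈ (perfectMatchings S).offDiag,
    1 / ((powersetCard 4 (univ : Finset (Fin n))).card : ℝ) *
      (1 / ((perfectMatchings S).offDiag.card : ℝ)) * (if switch G m.1 m.2 = H then 1 else 0)

open Classical in
/-- the switch chain: with probability `1/2` stay put, otherwise use `proposal` -/
noncomputable def chain (n : ℕ) : Matrix (SimpleGraph (Fin n)) (SimpleGraph (Fin n)) ℝ :=
  (1 / 2 : ℝ) • (1 + proposal n)

open Classical in
/-- the simple graphs on `Fin n` with degree vector `d` -/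
noncomputable def Omega {n : ℕ} (d : Fin n → ℕ) : Finset (SimpleGraph (Fin n)) :=
  univ.filter fun G => ∀ v, (G.neighborSet v).ncard = d v

open Classical in
/-- total variation distance between the law after `t` steps from `G` and the uniform law on
`Omega d` -/
noncomputable def tvDist {n : ℕ} (d : Fin n → ℕ) (t : ℕ) (G : SimpleGraph (Fin n)) : ℝ :=
  (1 / 2) * ∑ H ∈ Omega d, |((chain n) ^ t) G H - 1 / ((Omega d).card : ℝ)|

/-- the mixing time -/
noncomputable def mixingTime {n : ℕ} (d : Fin n → ℕ) : ℕ :=
  sInf {t | ∀ G ∈ Omega d, tvDist d t G ≤ 1 / 4}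

end Vale.Agent.P335.Lit
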