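import Vale.Agent.P335.GDefs
import Vale.Agent.P335.L.LDefs

/-! P335: the switch chain exactly as in the problem, and its identification with `Pn`. -/

namespace Vale.Agent.P335.Lit

open Finset

variable {n : ℕ}

/-- the two matchings of a quadruple -/
def Fq (q : Fin n × Fin n × Fin n × Fin n) : Finset (Sym2 (Fin n)) :=
  {s(q.1, q.2.1), s(q.2.2.1, q.2.2.2)}

def Fq' (q : Fin n × Fin n × Fin n × Fin n) : Finset (Sym2 (Fin n)) :=
  {s(q.2.1, q.2.2.1), s(q.2.2.2, q.1)}

def Sq (q : Fin n × Fin n × Fin n × Fin n) : Finset (Fin n) :=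
  {q.1, q.2.1, q.2.2.1, q.2.2.2}

lemma step_eq (G : SimpleGraph (Fin n)) (q : Fin n × Fin n × Fin n × Fin n) :
    step G q = switch G (Fq q) (Fq' q) := by
  classical
  obtain ⟨a, b, c, e⟩ := q
  unfold step switch Fq Fq'
  simp only [Finset.mem_insert, Finset.mem_singleton, forall_eq_or_imp, forall_eq,
    SimpleGraph.mem_edgeSet, Finset.coe_insert, Finset.coe_singleton]
  congr 1
  simp only [and_assoc, eq_iff_iff]

lemma two {F : Finset (Sym2 (Fin n))} (hF : F.card = 2) {a x y z : Fin n}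
    (h1 : s(a, x) ∈ F) (hy : ∃ e ∈ F, y ∈ e) (hz : ∃ e ∈ F, z ∈ e)
    (hya : y ≠ a) (hyx : y ≠ x) (hza : z ≠ a) (hzx : z ≠ x) (hyz : y ≠ z) :
    F = {s(a, x), s(y, z)} := by
  classical
  obtain ⟨e1, e2, hne, hFe⟩ := Finset.card_eq_two.1 hF
  obtain ⟨f, hf, hyf⟩ := hy
  obtain ⟨g, hg, hzg⟩ := hz
  have hfy : f ≠ s(a, x) := by
    rintro rfl
    rcases Sym2.mem_iff.1 hyf with h | h
    · exact hya h
    · exact hyx h
  have hgz : g ≠ s(a, x) := by
    rintro rfl
    rcases Sym2.mem_iff.1 hzg with h | h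
    · exact hza h
    · exact hzx h
  have hfg : f = g := by
    rw [hFe] at h1 hf hg
    simp only [Finset.mem_insert, Finset.mem_singleton] at h1 hf hg
    rcases h1 with h1 | h1 <;> rcases hf with hf | hf <;> rcases hg with hg | hg <;>
      first
        | (exact hf.trans hg.symm)
        | (exact absurd (hf.trans h1.symm) hfy)
        | (exact absurd (hg.trans h1.symm) hgz)
  subst hfg
  have hfe : f = s(y, z) := (Sym2.mem_and_mem_iff hyz).1 ⟨hyf, hzg⟩
  subst hfe
  have hsub : ({s(a, x), s(y, z)} : Finset (Sym2 (Fin n))) ⊆ F := by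
    intro w hw
    simp only [Finset.mem_insert, Finset.mem_singleton] at hw
    rcases hw with rfl | rfl
    · exact h1
    · exact hf
  exact (Finset.eq_of_subset_of_card_le hsub (by
    rw [hF, Finset.card_pair (Ne.symm hfy)])).symm

lemma mem_pm {S : Finset (Fin n)} {F : Finset (Sym2 (Fin n))} :
    F ∈ perfectMatchings S ↔
      F.card = 2 ∧ (∀ e ∈ F, ¬ e.IsDiag) ∧ ∀ v, v ∈ S ↔ ∃ e ∈ F, v ∈ e := by
  classical
  unfold perfectMatchings
  simp

/-- every edge of a perfect matching at `a` -/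
lemma partner {S : Finset (Fin n)} {F : Finset (Sym2 (Fin n))} (hF : F ∈ perfectMatchings S)
    {a : Fin n} (ha : a ∈ S) : ∃ x, x ∈ S ∧ x ≠ a ∧ s(a, x) ∈ F := by
  obtain ⟨-, h2, h3⟩ := mem_pm.1 hF
  obtain ⟨e, he, hae⟩ := (h3 a).1 ha
  obtain ⟨x, rfl⟩ := Sym2.mem_iff_exists.1 hae
  refine ⟨x, (h3 x).2 ⟨_, he, Sym2.mem_mk_right _ _⟩, ?_, he⟩
  rintro rfl
  exact h2 _ he (by simp)

lemma quad_mem {q : Fin n × Fin n × Fin n × Fin n} : q ∈ Quad n ↔
    q.1 ≠ q.2.1 ∧ q.1 ≠ q.2.2.1 ∧ q.1 ≠ q.2.2.2 ∧ q.2.1 ≠ q.2.2.1 ∧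
    q.2.1 ≠ q.2.2.2 ∧ q.2.2.1 ≠ q.2.2.2 := by
  unfold Quad
  simp

lemma pm_pair {a b c e : Fin n} (h1 : a ≠ b) (h2 : a ≠ c) (h3 : a ≠ e) (h4 : b ≠ c)
    (h5 : b ≠ e) (h6 : c ≠ e) :
    ({s(a, b), s(c, e)} : Finset (Sym2 (Fin n))) ∈ perfectMatchings {a, b, c, e} := by
  classical
  rw [mem_pm]
  refine ⟨?_, ?_, ?_⟩
  · rw [Finset.card_pair]
    intro h
    rw [Sym2.eq_iff] at h
    rcases h with ⟨h, -⟩ | ⟨h, -⟩
    · exact h2 h
    · exact h3 h
  · intro f hf
    simp only [Finset.mem_insert, Finset.mem_singleton] at hf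
    rcases hf with rfl | rfl
    · simpa using h1
    · simpa using h6
  · intro v
    simp only [Finset.mem_insert, Finset.mem_singleton, exists_eq_or_imp, exists_eq_left,
      Sym2.mem_iff]
    tauto

/-- a pair of distinct perfect matchings comes from a quadruple -/
lemma exists_quad {S : Finset (Fin n)} (hS : S.card = 4) {F F' : Finset (Sym2 (Fin n))}
    (hF : F ∈ perfectMatchings S) (hF' : F' ∈ perfectMatchings S) (hne : F ≠ F') :
    ∃ q ∈ Quad n, Sq q = S ∧ Fq q = F ∧ Fq' q = F' := by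
  classical
  obtain ⟨a, ha⟩ : S.Nonempty := Finset.card_pos.1 (by omega)
  obtain ⟨b, hb, hba, hab⟩ := partner hF ha
  -- the two remaining vertices
  have hc2 : ((S.erase a).erase b).card = 2 := by
    rw [Finset.card_erase_of_mem (Finset.mem_erase.2 ⟨hba, hb⟩), Finset.card_erase_of_mem ha, hS]
  obtain ⟨c, d, hcd, hcdS⟩ := Finset.card_eq_two.1 hc2
  have hc : c ∈ S ∧ c ≠ a ∧ c ≠ b := by
    have : c ∈ (S.erase a).erase b := by rw [hcdS]; simp
    simp only [Finset.mem_erase] at this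
    exact ⟨this.2.2, this.2.1, this.1⟩
  have hd : d ∈ S ∧ d ≠ a ∧ d ≠ b := by
    have : d ∈ (S.erase a).erase b := by rw [hcdS]; simp
    simp only [Finset.mem_erase] at this
    exact ⟨this.2.2, this.2.1, this.1⟩
  have hSeq : S = {a, b, c, d} := by
    have h1 : S = insert a (insert b ((S.erase a).erase b)) := by
      rw [Finset.insert_erase (Finset.mem_erase.2 ⟨hba, hb⟩), Finset.insert_erase ha]
    rw [h1, hcdS]
  have hcov : ∀ v ∈ S, ∃ e ∈ F, v ∈ e := fun v hv => ((mem_pm.1 hF).2.2 v).1 hv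
  have hcov' : ∀ v ∈ S, ∃ e ∈ F', v ∈ e := fun v hv => ((mem_pm.1 hF').2.2 v).1 hv
  have hFeq : F = {s(a, b), s(c, d)} :=
    two (mem_pm.1 hF).1 hab (hcov c hc.1) (hcov d hd.1) hc.2.1 hc.2.2 hd.2.1 hd.2.2 hcd
  obtain ⟨x, hxS, hxa, hax⟩ := partner hF' ha
  have hx : x = b ∨ x = c ∨ x = d := by
    rw [hSeq] at hxS
    simp only [Finset.mem_insert, Finset.mem_singleton] at hxS
    tauto
  rcases hx with rfl | rfl | rfl
  · exfalso
    apply hne
    rw [hFeq]
    exact (two (mem_pm.1 hF').1 hax (hcov' c hc.1) (hcov' d hd.1) hc.2.1 hc.2.2 hd.2.1 hd.2.2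
      hcd).symm
  · -- F' = {a c, b d}
    have hF'eq : F' = {s(a, x), s(b, d)} :=
      two (mem_pm.1 hF').1 hax (hcov' b hb) (hcov' d hd.1) hba (Ne.symm hc.2.2) hd.2.1
        (Ne.symm hcd) (Ne.symm hd.2.2)
    refine ⟨(a, b, d, x), quad_mem.2 ⟨Ne.symm hba, Ne.symm hd.2.1, Ne.symm hxa, Ne.symm hd.2.2,
      Ne.symm hc.2.2, Ne.symm hcd⟩, ?_, ?_, ?_⟩
    · rw [hSeq]
      ext v
      simp only [Sq, Finset.mem_insert, Finset.mem_singleton]
      tauto
    · rw [hFeq]
      show ({s(a, b), s(d, x)} : Finset (Sym2 (Fin n))) = _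
      rw [Sym2.eq_swap (a := d)]
    · rw [hF'eq]
      show ({s(b, d), s(x, a)} : Finset (Sym2 (Fin n))) = _
      rw [Sym2.eq_swap (a := x), Finset.pair_comm]
  · -- F' = {a d, b c}
    have hF'eq : F' = {s(a, x), s(b, c)} :=
      two (mem_pm.1 hF').1 hax (hcov' b hb) (hcov' c hc.1) hba (Ne.symm hd.2.2) hc.2.1 hcd
        (Ne.symm hc.2.2)
    refine ⟨(a, b, c, x), quad_mem.2 ⟨Ne.symm hba, Ne.symm hc.2.1, Ne.symm hxa, Ne.symm hc.2.2,
      Ne.symm hd.2.2, hcd⟩, ?_, ?_, ?_⟩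
    · rw [hSeq]; rfl
    · rw [hFeq]; rfl
    · rw [hF'eq]
      show ({s(b, c), s(x, a)} : Finset (Sym2 (Fin n))) = _
      rw [Sym2.eq_swap (a := x), Finset.pair_comm]

/-- the fibre of a quadruple has four elements -/
lemma fiber {q : Fin n × Fin n × Fin n × Fin n} (hq : q ∈ Quad n) :
    ((Quad n).filter fun q' => Fq q' = Fq q ∧ Fq' q' = Fq' q) =
      {(q.1, q.2.1, q.2.2.1, q.2.2.2), (q.2.1, q.1, q.2.2.2, q.2.2.1),
        (q.2.2.1, q.2.2.2, q.1, q.2.1), (q.2.2.2, q.2.2.1, q.2.1, q.1)} := by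
  classical
  obtain ⟨a, b, c, e⟩ := q
  obtain ⟨h1, h2, h3, h4, h5, h6⟩ := quad_mem.1 hq
  simp only at h1 h2 h3 h4 h5 h6
  ext ⟨a', b', c', e'⟩
  simp only [Finset.mem_filter, Finset.mem_insert, Finset.mem_singleton, Prod.mk.injEq]
  constructor
  · rintro ⟨hq', hF, hF'⟩
    obtain ⟨k1, k2, k3, k4, k5, k6⟩ := quad_mem.1 hq'
    simp only at k1 k2 k3 k4 k5 k6
    have m1 : s(a', b') ∈ Fq (a, b, c, e) := by rw [← hF]; simp [Fq]
    have m2 : s(c', e') ∈ Fq (a, b, c, e) := by rw [← hF]; simp [Fq]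
    have m3 : s(b', c') ∈ Fq' (a, b, c, e) := by rw [← hF']; simp [Fq']
    simp only [Fq, Fq', Finset.mem_insert, Finset.mem_singleton, Sym2.eq_iff] at m1 m2 m3
    rcases m1 with (⟨rfl, rfl⟩ | ⟨rfl, rfl⟩) | (⟨rfl, rfl⟩ | ⟨rfl, rfl⟩) <;>
    rcases m3 with (⟨n1, n2⟩ | ⟨n1, n2⟩) | (⟨n1, n2⟩ | ⟨n1, n2⟩) <;>
    rcases m2 with (⟨n3, n4⟩ | ⟨n3, n4⟩) | (⟨n3, n4⟩ | ⟨n3, n4⟩) <;>
    first
      | (subst_vars; simp_all; done)
      | (exfalso; simp_all; done)
      | (exfalso; subst_vars; simp_all; done)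
  · rintro (⟨rfl, rfl, rfl, rfl⟩ | ⟨rfl, rfl, rfl, rfl⟩ | ⟨rfl, rfl, rfl, rfl⟩ |
      ⟨rfl, rfl, rfl, rfl⟩)
    · exact ⟨hq, rfl, rfl⟩
    · refine ⟨quad_mem.2 ⟨Ne.symm h1, h5, h4, h3, h2, Ne.symm h6⟩, ?_, ?_⟩
      · show ({s(a', b'), s(c', e')} : Finset (Sym2 (Fin n))) = {s(b', a'), s(e', c')}
        rw [Sym2.eq_swap (a := b'), Sym2.eq_swap (a := e')]
      · show ({s(b', c'), s(e', a')} : Finset (Sym2 (Fin n))) = {s(a', e'), s(c', b')}
        rw [Sym2.eq_swap (a := a'), Sym2.eq_swap (a := c'), Finset.pair_comm]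
    · refine ⟨quad_mem.2 ⟨h6, Ne.symm h2, Ne.symm h4, Ne.symm h3, Ne.symm h5, h1⟩, ?_, ?_⟩
      · exact Finset.pair_comm _ _
      · exact Finset.pair_comm _ _
    · refine ⟨quad_mem.2 ⟨Ne.symm h6, Ne.symm h5, Ne.symm h3, Ne.symm h4, Ne.symm h2,
        Ne.symm h1⟩, ?_, ?_⟩
      · show ({s(a', b'), s(c', e')} : Finset (Sym2 (Fin n))) = {s(e', c'), s(b', a')}
        rw [Sym2.eq_swap (a := e'), Sym2.eq_swap (a := b'), Finset.pair_comm]
      · show ({s(b', c'), s(e', a')} : Finset (Sym2 (Fin n))) = {s(c', b'), s(a', e')}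
        rw [Sym2.eq_swap (a := c'), Sym2.eq_swap (a := a')]

lemma quad_Sq {q : Fin n × Fin n × Fin n × Fin n} (hq : q ∈ Quad n) : (Sq q).card = 4 := by
  classical
  obtain ⟨a, b, c, e⟩ := q
  obtain ⟨h1, h2, h3, h4, h5, h6⟩ := quad_mem.1 hq
  simp only at h1 h2 h3 h4 h5 h6
  unfold Sq
  rw [Finset.card_insert_of_notMem (by simp; tauto), Finset.card_insert_of_notMem (by simp; tauto),
    Finset.card_insert_of_notMem (by simp; tauto), Finset.card_singleton]

lemma quad_pm {q : Fin n × Fin n × Fin n × Fin n} (hq : q ∈ Quad n) :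
    (Fq q, Fq' q) ∈ (perfectMatchings (Sq q)).offDiag := by
  classical
  obtain ⟨a, b, c, e⟩ := q
  obtain ⟨h1, h2, h3, h4, h5, h6⟩ := quad_mem.1 hq
  simp only at h1 h2 h3 h4 h5 h6
  rw [Finset.mem_offDiag]
  refine ⟨pm_pair h1 h2 h3 h4 h5 h6, ?_, ?_⟩
  · have h := pm_pair h4 h5 (Ne.symm h1) h6 (Ne.symm h2) (Ne.symm h3)
    have hS : Sq (a, b, c, e) = {b, c, e, a} := by
      ext v
      simp only [Sq, Finset.mem_insert, Finset.mem_singleton]
      tauto
    rw [hS]
    exact h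
  · intro h
    have h' : s(a, b) ∈ Fq' (a, b, c, e) := by
      have : Fq (a, b, c, e) = Fq' (a, b, c, e) := h
      rw [← this]; simp [Fq]
    simp only [Fq', Finset.mem_insert, Finset.mem_singleton, Sym2.eq_iff] at h'
    rcases h' with (⟨k, -⟩ | ⟨k, -⟩) | (⟨k, -⟩ | ⟨-, k⟩)
    · exact h1 k
    · exact h2 k
    · exact h3 k
    · exact h5 k

lemma Sq_of_pm {q : Fin n × Fin n × Fin n × Fin n} (hq : q ∈ Quad n) {S : Finset (Fin n)}
    (h : Fq q ∈ perfectMatchings S) : Sq q = S := by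
  classical
  have h1 := (mem_pm.1 h).2.2
  have h2 := (mem_pm.1 (Finset.mem_offDiag.1 (quad_pm hq)).1).2.2
  ext v
  rw [h1 v, h2 v]

/-- four quadruples for each ordered pair of distinct perfect matchings -/
lemma count (S : Finset (Fin n)) (hS : S.card = 4)
    (R : Finset (Sym2 (Fin n)) × Finset (Sym2 (Fin n)) → Prop) [DecidablePred R] :
    ((Quad n).filter fun q => Sq q = S ∧ R (Fq q, Fq' q)).card =
      4 * (((perfectMatchings S).offDiag.filter R).card) := by
  classical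
  have hmap : ∀ q ∈ (Quad n).filter (fun q => Sq q = S ∧ R (Fq q, Fq' q)),
      (Fq q, Fq' q) ∈ (perfectMatchings S).offDiag.filter R := by
    intro q hq
    obtain ⟨hq1, hq2, hq3⟩ := Finset.mem_filter.1 hq
    refine Finset.mem_filter.2 ⟨?_, hq3⟩
    rw [← hq2]
    exact quad_pm hq1
  rw [Finset.card_eq_sum_card_fiberwise hmap]
  rw [Finset.sum_const_nat (m := 4), mul_comm]
  rintro ⟨F, F'⟩ hFF
  obtain ⟨hoff, hR⟩ := Finset.mem_filter.1 hFF
  obtain ⟨hF, hF', hne⟩ := Finset.mem_offDiag.1 hoff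
  obtain ⟨q, hq, hqS, rfl, rfl⟩ := exists_quad hS hF hF' hne
  have e1 : ((Quad n).filter fun q' => Sq q' = S ∧ R (Fq q', Fq' q')).filter
      (fun q' => (Fq q', Fq' q') = (Fq q, Fq' q)) =
      (Quad n).filter fun q' => Fq q' = Fq q ∧ Fq' q' = Fq' q := by
    ext q'
    simp only [Finset.mem_filter, Prod.mk.injEq]
    constructor
    · rintro ⟨⟨h1, -, -⟩, h2, h3⟩
      exact ⟨h1, h2, h3⟩
    · rintro ⟨h1, h2, h3⟩
      refine ⟨⟨h1, ?_, ?_⟩, h2, h3⟩
      · apply Sq_of_pm h1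
        rw [h2]; exact hF
      · rw [h2, h3]; exact hR
  rw [e1, fiber hq]
  obtain ⟨a, b, c, e⟩ := q
  obtain ⟨h1, h2, h3, h4, h5, h6⟩ := quad_mem.1 hq
  simp only at h1 h2 h3 h4 h5 h6
  rw [Finset.card_insert_of_notMem (by simp; tauto), Finset.card_insert_of_notMem (by simp; tauto),
    Finset.card_insert_of_notMem (by simp; tauto), Finset.card_singleton]

lemma pm_card {S : Finset (Fin n)} (hS : S.card = 4) : (perfectMatchings S).card = 3 := by
  classical
  obtain ⟨a, ha⟩ : S.Nonempty := Finset.card_pos.1 (by omega)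
  have h3 : (S.erase a).card = 3 := by rw [Finset.card_erase_of_mem ha, hS]
  obtain ⟨b, c, d, hbc, hbd, hcd, hE⟩ := Finset.card_eq_three.1 h3
  have hSeq : S = {a, b, c, d} := by rw [← hE, Finset.insert_erase ha]
  have haE : a ∉ ({b, c, d} : Finset (Fin n)) := by rw [← hE]; simp
  simp only [Finset.mem_insert, Finset.mem_singleton, not_or] at haE
  obtain ⟨hab, hac, had⟩ := haE
  have hEq : perfectMatchings S = {({s(a, b), s(c, d)} : Finset (Sym2 (Fin n))),
      ({s(a, c), s(b, d)} : Finset (Sym2 (Fin n))),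
      ({s(a, d), s(b, c)} : Finset (Sym2 (Fin n)))} := by
    ext F
    simp only [Finset.mem_insert, Finset.mem_singleton]
    constructor
    · intro hF
      have hcov : ∀ v ∈ S, ∃ e ∈ F, v ∈ e := fun v hv => ((mem_pm.1 hF).2.2 v).1 hv
      have hbS : b ∈ S := by rw [hSeq]; simp
      have hcS : c ∈ S := by rw [hSeq]; simp
      have hdS : d ∈ S := by rw [hSeq]; simp
      obtain ⟨x, hxS, hxa, hax⟩ := partner hF ha
      have hx : x = b ∨ x = c ∨ x = d := by
        rw [hSeq] at hxS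
        simp only [Finset.mem_insert, Finset.mem_singleton] at hxS
        tauto
      rcases hx with rfl | rfl | rfl
      · exact Or.inl (two (mem_pm.1 hF).1 hax (hcov c hcS) (hcov d hdS) (Ne.symm hac)
          (Ne.symm hbc) (Ne.symm had) (Ne.symm hbd) hcd)
      · exact Or.inr (Or.inl (two (mem_pm.1 hF).1 hax (hcov b hbS) (hcov d hdS) (Ne.symm hab)
          hbc (Ne.symm had) (Ne.symm hcd) hbd))
      · exact Or.inr (Or.inr (two (mem_pm.1 hF).1 hax (hcov b hbS) (hcov c hcS) (Ne.symm hab)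
          hbd (Ne.symm hac) hcd hbc))
    · rintro (rfl | rfl | rfl)
      · rw [hSeq]
        exact pm_pair hab hac had hbc hbd hcd
      · have h := pm_pair hac hab had (Ne.symm hbc) hcd hbd
        have hS' : S = {a, c, b, d} := by
          rw [hSeq]
          ext v
          simp only [Finset.mem_insert, Finset.mem_singleton]
          tauto
        rw [hS']
        exact h
      · have h := pm_pair had hab hac (Ne.symm hbd) (Ne.symm hcd) hbc
        have hS' : S = {a, d, b, c} := by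
          rw [hSeq]
          ext v
          simp only [Finset.mem_insert, Finset.mem_singleton]
          tauto
        rw [hS']
        exact h
  have n1 : ({s(a, b), s(c, d)} : Finset (Sym2 (Fin n))) ≠ {s(a, c), s(b, d)} := by
    intro h
    have h' : s(a, b) ∈ ({s(a, c), s(b, d)} : Finset (Sym2 (Fin n))) := by rw [← h]; simp
    simp only [Finset.mem_insert, Finset.mem_singleton, Sym2.eq_iff] at h'
    tauto
  have n2 : ({s(a, b), s(c, d)} : Finset (Sym2 (Fin n))) ≠ {s(a, d), s(b, c)} := by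
    intro h
    have h' : s(a, b) ∈ ({s(a, d), s(b, c)} : Finset (Sym2 (Fin n))) := by rw [← h]; simp
    simp only [Finset.mem_insert, Finset.mem_singleton, Sym2.eq_iff] at h'
    tauto
  have n3 : ({s(a, c), s(b, d)} : Finset (Sym2 (Fin n))) ≠ {s(a, d), s(b, c)} := by
    intro h
    have h' : s(a, c) ∈ ({s(a, d), s(b, c)} : Finset (Sym2 (Fin n))) := by rw [← h]; simp
    simp only [Finset.mem_insert, Finset.mem_singleton, Sym2.eq_iff] at h'
    tauto
  rw [hEq, Finset.card_insert_of_notMem, Finset.card_insert_of_notMem, Finset.card_singleton]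
  · rw [Finset.mem_singleton]; exact n3
  · rw [Finset.mem_insert, Finset.mem_singleton, not_or]; exact ⟨n1, n2⟩

lemma off_card {S : Finset (Fin n)} (hS : S.card = 4) :
    (perfectMatchings S).offDiag.card = 6 := by
  rw [Finset.offDiag_card, pm_card hS]

/-- the kernel of the problem is `Kn` -/
theorem K_eq (n : ℕ) : proposal n = Kn n := by
  classical
  funext G H
  unfold proposal Kn
  set P4 := powersetCard 4 (univ : Finset (Fin n)) with hP4
  have hmemP : ∀ S, S ∈ P4 ↔ S.card = 4 := by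
    intro S
    rw [hP4, Finset.mem_powersetCard]
    simp
  have c1 : ((Quad n).filter (fun q => step G q = H)).card =
      ∑ S ∈ P4, 4 * (((perfectMatchings S).offDiag.filter fun m => switch G m.1 m.2 = H).card) := by
    rw [Finset.card_eq_sum_card_fiberwise (f := Sq) (t := P4)]
    · apply Finset.sum_congr rfl
      intro S hS
      rw [← count S ((hmemP S).1 hS) (fun m => switch G m.1 m.2 = H), Finset.filter_filter]
      congr 1
      ext q
      simp only [Finset.mem_filter, step_eq]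
      tauto
    · intro q hq
      exact (hmemP _).2 (quad_Sq (Finset.mem_filter.1 hq).1)
  have c2 : (Quad n).card = 24 * P4.card := by
    rw [Finset.card_eq_sum_card_fiberwise (f := Sq) (t := P4)]
    · rw [Finset.sum_const_nat (m := 24), mul_comm]
      intro S hS
      have h := count S ((hmemP S).1 hS) (fun _ => True)
      rw [Finset.filter_true_of_mem (s := (perfectMatchings S).offDiag) (fun _ _ => trivial),
        off_card ((hmemP S).1 hS)] at h
      rw [← show 4 * 6 = 24 from rfl, ← h]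
      congr 1
      ext q
      simp
    · intro q hq
      exact (hmemP _).2 (quad_Sq hq)
  rw [c1, c2]
  push_cast
  rcases Nat.eq_zero_or_pos P4.card with h0 | hpos
  · have : P4 = ∅ := Finset.card_eq_zero.1 h0
    rw [this]
    simp
  · have hne : (P4.card : ℝ) ≠ 0 := by positivity
    rw [Finset.sum_div]
    apply Finset.sum_congr rfl
    intro S hS
    rw [← Finset.mul_sum, off_card ((hmemP S).1 hS), Finset.sum_boole]
    push_cast
    field_simp
    ring

theorem chain_eq (n : ℕ) : chain n = Pn n := by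
  unfold chain Pn
  rw [K_eq]

theorem Omega_eq (d : Fin n → ℕ) : Omega d = Om d := by
  classical
  unfold Omega Om
  ext G
  simp only [Finset.mem_filter, Finset.mem_univ, true_and]
  refine forall_congr' fun v => ?_
  have h : (G.neighborSet v).ncard = (univ.filter (fun w => G.Adj v w)).card := by
    rw [← Set.ncard_coe_finset]
    congr 1
    ext w
    simp
  rw [h]

theorem tv_le (d : Fin n → ℕ) (t : ℕ) (G : SimpleGraph (Fin n)) : tvDist d t G ≤ tv d t G := by
  classical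
  unfold tvDist tv
  rw [Omega_eq, chain_eq]
  apply mul_le_mul_of_nonneg_left _ (by norm_num)
  have h1 : ∑ H ∈ Om d, |((Pn n) ^ t) G H - 1 / ((Om d).card : ℝ)| =
      ∑ H ∈ Om d, |((Pn n) ^ t) G H - (if H ∈ Om d then 1 / ((Om d).card : ℝ) else 0)| := by
    apply Finset.sum_congr rfl
    intro H hH
    rw [if_pos hH]
  rw [h1]
  refine (Finset.sum_le_sum_of_subset_of_nonneg (Finset.subset_univ _) ?_).trans (le_of_eq ?_)
  · intro i _ _
    exact abs_nonneg _
  · apply Finset.sum_congr rfl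
    intro H _
    congr

end Vale.Agent.P335.Lit
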